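import Vale.Agent.P331.H705.Entrance
import Vale.Agent.P331.H379.JStar

/-!
# The adversarial fragments
-/

set_option autoImplicit false
set_option linter.unusedSectionVars false
set_option linter.unusedVariables false

namespace Vale.Agent.P331.H705

open Finset Vale.Agent.P331.H489
open scoped Classical

section aux

variable {E L : Type} [Fintype E] [Fintype L]

theorem EX_mono_supp {w : E → L → ℝ} (hw : ∀ e l, 0 ≤ w e l) {F G : (E → L) → ℝ}
    (h : ∀ ω, (∀ e, w e (ω e) ≠ 0) → F ω ≤ G ω) : EX w F ≤ EX w G := by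
  refine sum_le_sum fun ω _ => ?_
  by_cases h0 : ∀ e, w e (ω e) ≠ 0
  · exact mul_le_mul_of_nonneg_left (h ω h0) (prod_nonneg fun e _ => hw e _)
  · push Not at h0
    obtain ⟨e, he⟩ := h0
    rw [prod_eq_zero (mem_univ e) he, zero_mul, zero_mul]

theorem EX_congr_supp {w : E → L → ℝ} {F G : (E → L) → ℝ}
    (h : ∀ ω, (∀ e, w e (ω e) ≠ 0) → F ω = G ω) : EX w F = EX w G := by
  refine sum_congr rfl fun ω _ => ?_
  by_cases h0 : ∀ e, w e (ω e) ≠ 0
  · rw [h ω h0]
  · push Not at h0
    obtain ⟨e, he⟩ := h0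
    rw [prod_eq_zero (mem_univ e) he, zero_mul, zero_mul]

end aux

section

variable {E : Type} [Fintype E] (M : Matroid E) (lt : E → E → Prop) [IsStrictTotalOrder E lt]

/-- the event, the labels of `b` and `z` being replaced by `o` -/
def A5 (b z : E) (x ρ : ℕ) (κ : E → C5) : Prop :=
  κ b = .o ∧ κ z = .o ∧ lt z b ∧ ∃ X : Finset E, b ∈ X ∧ X.card = x ∧
    (∀ e ∈ X.erase b, κ e = .v ∧ lt z e) ∧
    miss M lt z (fun e => κ e = .r) (fun e => κ e = .d ∨ e ∈ X) ≤ 1 / (2 * ((x : ℝ) + 1)) ∧
    1 / (2 * (x : ℝ)) < miss M lt z (fun e => κ e = .r) (fun e => κ e = .d ∨ e ∈ X.erase b) ∧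
    ∀ U ⊆ X, U.card < ρ → 1 / (2 * ((U.card : ℝ) + 1)) <
      miss M lt z (fun e => κ e = .r) (fun e => κ e = .d ∨ κ e = .g ∨ e ∈ U)

theorem A5_of_Ev1 {b z : E} {x ρ : ℕ} {κ : E → C5} (h : Ev1 M lt b z x ρ κ) :
    A5 M lt b z x ρ (Function.update (Function.update κ b .o) z .o) := by
  obtain ⟨hb, hz, X, hbX, hX, hXv, h1, h2, h3⟩ := h
  obtain ⟨κ', hκ'⟩ : ∃ κ' : E → C5, κ' = Function.update (Function.update κ b .o) z .o :=
    ⟨_, rfl⟩
  rw [← hκ']
  have hz' : κ' z = .o := by rw [hκ', Function.update_self]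
  have hb' : κ' b = .o := by
    by_cases hbz : b = z
    · rw [hbz, hz']
    · rw [hκ', Function.update_of_ne hbz, Function.update_self]
  have hne : ∀ e, e ≠ b → e ≠ z → κ' e = κ e := by
    intro e he he'
    rw [hκ', Function.update_of_ne he', Function.update_of_ne he]
  have hl : ∀ l : C5, l ≠ .o → l ≠ .v → (fun e => κ' e = l) = (fun e => κ e = l) := by
    intro l hl1 hl2
    funext e
    by_cases heb : e = b
    · rw [heb, hb', hb, eq_iff_iff]
      exact ⟨fun h => absurd h.symm hl1, fun h => absurd h.symm hl2⟩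
    · by_cases hez : e = z
      · rw [hez, hz', hz, eq_iff_iff]
        exact ⟨fun h => absurd h.symm hl1, fun h => absurd h.symm hl2⟩
      · rw [hne e heb hez]
  have hr : ∀ e, (κ' e = .r) = (κ e = .r) := fun e => congrFun (hl .r (by decide) (by decide)) e
  have hd : ∀ e, (κ' e = .d) = (κ e = .d) := fun e => congrFun (hl .d (by decide) (by decide)) e
  have hg : ∀ e, (κ' e = .g) = (κ e = .g) := fun e => congrFun (hl .g (by decide) (by decide)) e
  refine ⟨hb', hz', (hXv b hbX).2, X, hbX, hX, ?_, ?_, ?_, ?_⟩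
  · intro e he
    have heX := mem_of_mem_erase he
    have heb := ne_of_mem_erase he
    have hez : e ≠ z := by
      rintro rfl
      exact irrefl_of lt e (hXv e heX).2
    rw [hne e heb hez]
    exact hXv e heX
  · simp only [hr, hd]
    exact h1
  · simp only [hr, hd]
    exact h2
  · intro U hU hUρ
    simp only [hr, hd, hg]
    exact h3 U hU hUρ

/-- the weights with the labels of `b` and `z` forced to be `o` -/
noncomputable def w5' (p lam q : ℝ) (b z : E) (e : E) (l : C5) : ℝ :=
  if e = b ∨ e = z then (if l = .o then 1 else 0) else w5 p lam q l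

theorem step1 {p lam q : ℝ} (hp : 0 ≤ p) (hlam : 0 ≤ lam) (hq : 0 ≤ q)
    (hs : p + lam * p + q ≤ 1 / 2) {b z : E} (hbz : z ≠ b) (x ρ : ℕ) :
    EX (fun _ => w5 p lam q) (fun κ : E → C5 => if Ev1 M lt b z x ρ κ then 1 else 0) ≤
      p ^ 2 * EX (w5' p lam q b z) (fun κ => if A5 M lt b z x ρ κ then 1 else 0) := by
  have hlp : 0 ≤ lam * p := mul_nonneg hlam hp
  have hw : ∀ (e : E) (l : C5), 0 ≤ (fun _ => w5 p lam q : E → C5 → ℝ) e l := by
    intro e l
    cases l <;> simp only [w5] <;> linarith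
  obtain ⟨G, hG⟩ : ∃ G : (E → C5) → ℝ, ∀ κ, G κ = if A5 M lt b z x ρ
    (Function.update (Function.update κ b .o) z .o) then 1 else 0 := ⟨_, fun _ => rfl⟩
  have h1 : EX (fun _ => w5 p lam q) (fun κ : E → C5 => if Ev1 M lt b z x ρ κ then 1 else 0) ≤
      EX (fun _ => w5 p lam q) (fun κ : E → C5 => if κ b = .v then
        (if κ z = .v then G κ else 0) else 0) := by
    refine EX_mono hw fun κ => ?_
    by_cases h : Ev1 M lt b z x ρ κ
    · rw [if_pos h, if_pos h.1, if_pos h.2.1, hG, if_pos (A5_of_Ev1 M lt h)]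
    · rw [if_neg h]
      split_ifs
      · rw [hG]
        split_ifs <;> norm_num
      · exact le_rfl
      · exact le_rfl
  refine h1.trans (le_of_eq ?_)
  have c1 := EX_cond b C5.v C5.o (fun _ : E => w5 p lam q)
    (fun κ : E → C5 => if κ z = .v then G κ else 0)
  refine (Eq.trans ?_ c1).trans ?_
  · congr 1
  have h2 : (fun ω : E → C5 => if (Function.update ω b C5.v) z = .v then
      G (Function.update ω b .v) else 0) = fun ω => if ω z = .v then G ω else 0 := by
    funext ω
    rw [Function.update_of_ne hbz, hG, hG, Function.update_idem]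
  rw [h2]
  have c2 := EX_cond z C5.v C5.o (Function.update (fun _ : E => w5 p lam q) b (Pi.single .o 1)) G
  have h3 : (fun ω : E → C5 => G (Function.update ω z .v)) = G := by
    funext ω
    rw [hG, hG, Function.update_comm hbz.symm, Function.update_idem,
      Function.update_comm hbz.symm ]
  rw [h3] at c2
  rw [c2, Function.update_of_ne hbz]
  have h4 : Function.update (Function.update (fun _ : E => w5 p lam q) b (Pi.single .o 1)) z
      (Pi.single .o 1) = w5' p lam q b z := by
    funext e l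
    unfold w5'
    by_cases hez : e = z
    · subst hez
      rw [Function.update_self, if_pos (Or.inr rfl), Pi.single_apply]
    · rw [Function.update_of_ne hez]
      by_cases heb : e = b
      · subst heb
        rw [Function.update_self, if_pos (Or.inl rfl), Pi.single_apply]
      · rw [Function.update_of_ne heb, if_neg (not_or.2 ⟨heb, hez⟩)]
  rw [h4]
  have h5 : EX (w5' p lam q b z) G = EX (w5' p lam q b z)
      (fun κ => if A5 M lt b z x ρ κ then 1 else 0) := by
    refine EX_congr_supp fun ω hω => ?_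
    have hb : ω b = .o := by
      by_contra h
      exact hω b (by rw [w5', if_pos (Or.inl rfl), if_neg h])
    have hz : ω z = .o := by
      by_contra h
      exact hω z (by rw [w5', if_pos (Or.inr rfl), if_neg h])
    rw [hG]
    have h6 : Function.update (Function.update ω b C5.o) z C5.o = ω := by
      rw [← hb, Function.update_eq_self, hb, ← hz, Function.update_eq_self]
    rw [h6]
  rw [h5]
  simp only [w5]
  ring

/-- splitting the merged label `w` -/
def comb : Q → Bool → C5
  | .w, s => if s then .v else .g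
  | .r, _ => .r
  | .d, _ => .d
  | .o, _ => .o

/-- the weights of the splitting -/
noncomputable def uu (lam : ℝ) : Bool → ℝ
  | true => 1 / (1 + lam)
  | false => lam / (1 + lam)

theorem comb_v {m : Q} {s : Bool} : comb m s = .v ↔ m = .w ∧ s = true := by
  cases m <;> cases s <;> simp [comb]

theorem comb_g {m : Q} {s : Bool} : comb m s = .g ↔ m = .w ∧ s = false := by
  cases m <;> cases s <;> simp [comb]

theorem comb_r {m : Q} {s : Bool} : comb m s = .r ↔ m = .r := by
  cases m <;> cases s <;> simp [comb]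

theorem comb_d {m : Q} {s : Bool} : comb m s = .d ↔ m = .d := by
  cases m <;> cases s <;> simp [comb]

theorem comb_o {m : Q} {s : Bool} : comb m s = .o ↔ m = .o := by
  cases m <;> cases s <;> simp [comb]

theorem step2 {p lam q : ℝ} (hlam : 0 ≤ lam) (b z : E) (F : (E → C5) → ℝ) :
    EX (w5' p lam q b z) F = EX (w4 p lam q b z) (fun μ => EX (fun _ => uu lam)
      (fun σ : E → Bool => F (fun e => comb (μ e) (σ e)))) := by
  have h1 : (1 + lam : ℝ) ≠ 0 := by positivity
  rw [← EX_prod (w4 p lam q b z) (fun _ => uu lam) (fun μ σ => F (fun e => comb (μ e) (σ e)))]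
  have h2 := EX_push (fun x : Q × Bool => comb x.1 x.2)
    (fun (e : E) (x : Q × Bool) => w4 p lam q b z e x.1 * uu lam x.2) F
  refine Eq.trans ?_ h2.symm
  congr 1
  funext e c
  rw [sum_filter, Fintype.sum_prod_type, sum_Q]
  simp only [Fintype.sum_bool]
  by_cases h : e = b ∨ e = z
  · cases c <;> simp [w5', w4, comb, uu, h]
    field_simp
  · cases c <;> simp [w5', w4, w5, comb, uu, h] <;> field_simp

/-- the inner estimate -/
theorem inner {lam : ℝ} (hlam : 1 ≤ lam) {b z : E} {x ρ : ℕ} (μ : E → Q) (hb : μ b = .o)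
    (hz : μ z = .o) :
    EX (fun _ => uu lam) (fun σ : E → Bool =>
      if A5 M lt b z x ρ (fun e => comb (μ e) (σ e)) then 1 else 0) ≤ (1 / lam) ^ (ρ - 1) := by
  have hl0 : 0 < lam := by linarith
  have hl1 : (1 + lam : ℝ) ≠ 0 := by positivity
  have hu0 : ∀ s, 0 ≤ uu lam s := by
    intro s
    cases s <;> simp only [uu] <;> positivity
  -- the ground set and the family
  obtain ⟨W, hW⟩ : ∃ W : Finset E, ∀ e, e ∈ W ↔ μ e = .w :=
    ⟨univ.filter fun e => μ e = .w, fun e => by simp⟩
  obtain ⟨F, hF⟩ : ∃ F : Finset E → Prop, ∀ A, F A ↔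
    miss M lt z (fun e => μ e = .r) (fun e => μ e = .d ∨ e ∈ A ∨ e = b) ≤
      1 / (2 * ((x : ℝ) + 1)) := ⟨_, fun _ => Iff.rfl⟩
  have hFm : ∀ A B, A ⊆ B → B ⊆ W → F A → F B := by
    intro A B hAB _ hA
    rw [hF] at hA ⊢
    refine le_trans (miss_anti M lt (fun e h => h) (fun e h => ?_)) hA
    rcases h with h | h | h
    · exact Or.inl h
    · exact Or.inr (Or.inl (hAB h))
    · exact Or.inr (Or.inr h)
  -- good contexts
  obtain ⟨Gd, hGd⟩ : ∃ Gd : Finset E → Finset E → Prop, ∀ A X, Gd A X ↔ (b ∈ X ∧ X.card = x ∧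
    X.erase b ⊆ A ∧
    miss M lt z (fun e => μ e = .r) (fun e => μ e = .d ∨ e ∈ X) ≤ 1 / (2 * ((x : ℝ) + 1)) ∧
    ∀ U ⊆ X, U.card < ρ → 1 / (2 * ((U.card : ℝ) + 1)) <
      miss M lt z (fun e => μ e = .r) (fun e => μ e = .d ∨ e ∈ W \ A ∨ e ∈ U)) :=
    ⟨_, fun _ _ => Iff.rfl⟩
  obtain ⟨Kc, hKc⟩ : ∃ Kc : Finset E → Finset E, ∀ A, Kc A =
    if h : ∃ X, Gd A X then h.choose.erase b else A := ⟨_, fun _ => rfl⟩
  have hKc' : ∀ A ⊆ W, F A → Kc A ⊆ A ∧ F (Kc A) := by
    intro A hA hFA
    rw [hKc]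
    split_ifs with h
    · have h1 := (hGd _ _).1 h.choose_spec
      refine ⟨h1.2.2.1, ?_⟩
      rw [hF]
      refine le_trans (miss_anti M lt (fun e h => h) (fun e h' => ?_)) h1.2.2.2.1
      rcases h' with h' | h'
      · exact Or.inl h'
      · by_cases heb : e = b
        · exact Or.inr (Or.inr heb)
        · exact Or.inr (Or.inl (mem_erase.2 ⟨heb, h'⟩))
    · exact ⟨subset_rfl, hFA⟩
  obtain ⟨φ, hφ1, hφ2⟩ := H379.jstar W F hFm Kc hKc'
  -- the test set of a splitting
  obtain ⟨As, hAs⟩ : ∃ As : (E → Bool) → Finset E, ∀ σ, As σ = W.filter fun e => σ e = true :=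
    ⟨_, fun _ => rfl⟩
  have hAsW : ∀ σ, As σ ⊆ W := fun σ => by rw [hAs]; exact filter_subset _ _
  obtain ⟨Ψ, hΨ⟩ : ∃ Ψ : (E → Bool) → (E → Bool), ∀ σ e, Ψ σ e =
    if e ∈ W then decide (e ∉ (W \ As σ) ∪ φ (As σ)) else σ e := ⟨_, fun _ _ => rfl⟩
  obtain ⟨Bd, hBd⟩ : ∃ Bd : Finset (E → Bool), ∀ σ, σ ∈ Bd ↔
    A5 M lt b z x ρ (fun e => comb (μ e) (σ e)) :=
    ⟨univ.filter fun σ => A5 M lt b z x ρ (fun e => comb (μ e) (σ e)), fun σ => by simp⟩
  -- properties of bad splittings
  have key : ∀ σ ∈ Bd, F (As σ) ∧ ρ - 1 ≤ (φ (As σ)).card ∧ φ (As σ) ⊆ As σ := by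
    intro σ hσ
    obtain ⟨-, -, hzb, X, hbX, hXc, hXv, h1, h2, h3⟩ := (hBd σ).1 hσ
    simp only [comb_r, comb_d, comb_v, comb_g] at hXv h1 h2 h3
    have hXA : X.erase b ⊆ As σ := by
      intro e he
      rw [hAs, mem_filter, hW]
      exact (hXv e he).1
    have hg : ∀ e, (μ e = .w ∧ σ e = false) ↔ e ∈ W \ As σ := by
      intro e
      rw [mem_sdiff, hAs, mem_filter, hW]
      constructor
      · rintro ⟨h, h'⟩
        exact ⟨h, fun h'' => by rw [h'] at h''; exact absurd h''.2 (by decide)⟩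
      · rintro ⟨h, h'⟩
        refine ⟨h, ?_⟩
        cases hσe : σ e
        · rfl
        · exact absurd ⟨h, hσe⟩ h'
    simp only [hg] at h3
    have hGdX : Gd (As σ) X := (hGd _ _).2 ⟨hbX, hXc, hXA, h1, h3⟩
    have hex : ∃ X, Gd (As σ) X := ⟨X, hGdX⟩
    have hFA : F (As σ) := by
      rw [hF]
      refine le_trans (miss_anti M lt (fun e h => h) (fun e h' => ?_)) h1
      rcases h' with h' | h'
      · exact Or.inl h'
      · by_cases heb : e = b
        · exact Or.inr (Or.inr heb)
        · exact Or.inr (Or.inl (hXA (mem_erase.2 ⟨heb, h'⟩)))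
    obtain ⟨h4, h5⟩ := hφ1 (As σ) (hAsW σ) hFA
    obtain ⟨hc1, hc2, hc3, hc4, hc5⟩ := (hGd _ _).1 hex.choose_spec
    have hKe : Kc (As σ) = hex.choose.erase b := by rw [hKc, dif_pos hex]
    rw [hKe] at h4
    refine ⟨hFA, ?_, h4.trans hc3⟩
    by_contra hlt
    push Not at hlt
    -- the subset of the context
    have hbφ : b ∉ φ (As σ) := fun h => notMem_erase b _ (h4 h)
    have hUX : insert b (φ (As σ)) ⊆ hex.choose := by
      intro e he
      rcases mem_insert.1 he with rfl | he
      · exact hc1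
      · exact mem_of_mem_erase (h4 he)
    have hUc : (insert b (φ (As σ))).card = (φ (As σ)).card + 1 := card_insert_of_notMem hbφ
    have hUx : (insert b (φ (As σ))).card ≤ x := by
      rw [← hc2]
      exact card_le_card hUX
    have h6 := hc5 _ hUX (by omega)
    rw [hF] at h5
    have h7 : miss M lt z (fun e => μ e = .r) (fun e => μ e = .d ∨ e ∈ W \ As σ ∨
        e ∈ insert b (φ (As σ))) ≤ 1 / (2 * ((x : ℝ) + 1)) := by
      refine le_trans (miss_anti M lt (fun e h => h) (fun e h' => ?_)) h5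
      rcases h' with h' | h' | h'
      · exact Or.inl h'
      · rcases mem_union.1 h' with h' | h'
        · exact Or.inr (Or.inl h')
        · exact Or.inr (Or.inr (mem_insert_of_mem h'))
      · exact Or.inr (Or.inr (by rw [h']; exact mem_insert_self _ _))
    have h8 : (1 : ℝ) / (2 * ((x : ℝ) + 1)) ≤
        1 / (2 * (((insert b (φ (As σ))).card : ℝ) + 1)) := by
      have : ((insert b (φ (As σ))).card : ℝ) ≤ x := by exact_mod_cast hUx
      apply one_div_le_one_div_of_le
      · positivity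
      · linarith
    linarith
  -- injectivity
  have hinj : Set.InjOn Ψ (Bd : Set (E → Bool)) := by
    intro σ hσ σ' hσ' hΨe
    have h1 := key σ hσ
    have h2 := key σ' hσ'
    have hset : (W \ As σ) ∪ φ (As σ) = (W \ As σ') ∪ φ (As σ') := by
      have hsub : ∀ τ ∈ Bd, (W \ As τ) ∪ φ (As τ) ⊆ W := fun τ hτ =>
        union_subset sdiff_subset ((key τ hτ).2.2.trans (hAsW τ))
      ext e
      by_cases he : e ∈ W
      · have h3 := congrFun hΨe e
        rw [hΨ, hΨ, if_pos he, if_pos he, decide_eq_decide, not_iff_not] at h3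
        exact h3
      · exact ⟨fun h => absurd (hsub σ hσ h) he, fun h => absurd (hsub σ' hσ' h) he⟩
    have hAA : As σ = As σ' := hφ2 ⟨hAsW σ, h1.1⟩ ⟨hAsW σ', h2.1⟩ hset
    funext e
    by_cases he : e ∈ W
    · have h4 : e ∈ As σ ↔ e ∈ As σ' := by rw [hAA]
      rw [hAs, hAs, mem_filter, mem_filter] at h4
      have h5 : σ e = true ↔ σ' e = true :=
        ⟨fun h => (h4.1 ⟨he, h⟩).2, fun h => (h4.2 ⟨he, h⟩).2⟩
      exact Bool.eq_iff_iff.2 h5
    · have h3 := congrFun hΨe e
      rw [hΨ, hΨ, if_neg he, if_neg he] at h3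
      exact h3
  -- the weights
  have hwt : ∀ σ ∈ Bd, ∏ e, uu lam (σ e) ≤ (1 / lam) ^ (ρ - 1) * ∏ e, uu lam (Ψ σ e) := by
    intro σ hσ
    obtain ⟨h1, h2, h3⟩ := key σ hσ
    have h4 : ∀ e, uu lam (Ψ σ e) = uu lam (σ e) * (if e ∈ φ (As σ) then lam else 1) := by
      intro e
      rw [hΨ]
      by_cases he : e ∈ W
      · rw [if_pos he]
        by_cases hφe : e ∈ φ (As σ)
        · have h5 : σ e = true := by
            have := h3 hφe
            rw [hAs, mem_filter] at this
            exact this.2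
          have h6 : decide (e ∉ (W \ As σ) ∪ φ (As σ)) = false :=
            decide_eq_false (not_not.2 (mem_union_right _ hφe))
          rw [h6, h5, if_pos hφe]
          simp only [uu]
          ring
        · rw [if_neg hφe, mul_one]
          congr 1
          have h7 : (e ∉ (W \ As σ) ∪ φ (As σ)) ↔ σ e = true := by
            rw [mem_union, mem_sdiff, hAs, mem_filter, ← hAs]
            constructor
            · intro h
              by_contra h'
              exact h (Or.inl ⟨he, fun h'' => h' h''.2⟩)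
            · rintro h (h' | h')
              · exact h'.2 ⟨he, h⟩
              · exact hφe h'
          rw [Bool.eq_iff_iff, decide_eq_true_iff]
          exact h7
      · rw [if_neg he, if_neg (fun h => he (hAsW σ (h3 h))), mul_one]
    have h8 : ∏ e, uu lam (Ψ σ e) = (∏ e, uu lam (σ e)) * lam ^ (φ (As σ)).card := by
      rw [prod_congr rfl fun e _ => h4 e, prod_mul_distrib]
      congr 1
      rw [prod_ite_mem, univ_inter, prod_const]
    rw [h8]
    have h9 : lam ^ (ρ - 1) ≤ lam ^ (φ (As σ)).card := pow_le_pow_right₀ hlam h2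
    have h10 : 0 ≤ ∏ e, uu lam (σ e) := prod_nonneg fun e _ => hu0 _
    have h11 : (1 / lam) ^ (ρ - 1) * lam ^ (ρ - 1) = 1 := by
      rw [← mul_pow, one_div_mul_cancel hl0.ne', one_pow]
    calc ∏ e, uu lam (σ e) = (1 / lam) ^ (ρ - 1) * ((∏ e, uu lam (σ e)) * lam ^ (ρ - 1)) := by
          rw [mul_comm (∏ e, uu lam (σ e)), ← mul_assoc, h11, one_mul]
      _ ≤ _ := by gcongr
  -- the sum
  have hsum : EX (fun _ => uu lam) (fun σ : E → Bool =>
      if A5 M lt b z x ρ (fun e => comb (μ e) (σ e)) then 1 else 0) =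
      ∑ σ ∈ Bd, ∏ e, uu lam (σ e) := by
    unfold EX
    rw [← sum_filter_add_sum_filter_not univ (fun σ => σ ∈ Bd)]
    rw [sum_eq_zero (s := univ.filter fun σ => σ ∉ Bd), add_zero]
    · have : (univ.filter fun σ => σ ∈ Bd) = Bd := by ext σ; simp
      rw [this]
      refine sum_congr rfl fun σ hσ => ?_
      beta_reduce
      rw [if_pos ((hBd σ).1 hσ), mul_one]
    · intro σ hσ
      rw [mem_filter] at hσ
      beta_reduce
      rw [if_neg (fun h => hσ.2 ((hBd σ).2 h)), mul_zero]
  rw [hsum]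
  calc ∑ σ ∈ Bd, ∏ e, uu lam (σ e) ≤ ∑ σ ∈ Bd, (1 / lam) ^ (ρ - 1) * ∏ e, uu lam (Ψ σ e) :=
        sum_le_sum hwt
    _ = (1 / lam) ^ (ρ - 1) * ∑ σ ∈ Bd.image Ψ, ∏ e, uu lam (σ e) := by
        rw [← mul_sum, sum_image hinj]
    _ ≤ (1 / lam) ^ (ρ - 1) * ∑ σ : E → Bool, ∏ e, uu lam (σ e) := by
        refine mul_le_mul_of_nonneg_left ?_ (by positivity)
        exact sum_le_sum_of_subset_of_nonneg (subset_univ _)
          fun σ _ _ => prod_nonneg fun e _ => hu0 _
    _ = (1 / lam) ^ (ρ - 1) := by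
        have h := EX_one (fun _ : E => uu lam) (fun e => by
          rw [Fintype.sum_bool]
          simp only [uu]
          field_simp) 1
        unfold EX at h
        simp only [mul_one] at h
        rw [h, mul_one]

/-- the event implies `Rel` -/
theorem rel_of_A5 {b z : E} {x ρ : ℕ} (hx : 1 ≤ x) {μ : E → Q} {σ : E → Bool}
    (h : A5 M lt b z x ρ (fun e => comb (μ e) (σ e))) :
    Rel M lt b z x (1 / (2 * x * (x + 1))) μ := by
  obtain ⟨-, -, hzb, X, hbX, hXc, hXv, h1, h2, -⟩ := h
  simp only [comb_r, comb_d, comb_v] at hXv h1 h2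
  refine ⟨fun e => decide (e ∈ X.erase b), ?_, ?_⟩
  · have h3 : (univ.filter fun e => decide (e ∈ X.erase b) = true) = X.erase b := by
      ext e
      simp
    rw [h3, card_erase_of_mem hbX, hXc]
  · have hx0 : (0 : ℝ) < x := by exact_mod_cast hx
    have h4 : (1 : ℝ) / (2 * x * (x + 1)) = 1 / (2 * x) - 1 / (2 * (x + 1)) := by
      field_simp
      ring
    have h5 : EX (fun _ _ => 1 / 2) (fun s : E → Bool => phi M lt b z
        (fun e => mix (μ e) (decide (e ∈ X.erase b)) (s e))) =
        miss M lt z (fun e => μ e = .r) (fun e => μ e = .d ∨ e ∈ X.erase b) -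
        miss M lt z (fun e => μ e = .r) (fun e => μ e = .d ∨ e ∈ X) := by
      unfold miss
      rw [← EX_sub]
      congr 1
      funext s
      have hd : ∀ e, mix (μ e) (decide (e ∈ X.erase b)) (s e) = .d ↔ μ e = .d := by
        intro e
        cases hμ : μ e <;> simp only [mix] <;> (try split_ifs) <;> simp
      have ht : ∀ e, mix (μ e) (decide (e ∈ X.erase b)) (s e) = .t ↔
          ((μ e = .w ∧ e ∈ X.erase b) ∨ (μ e = .r ∧ s e = true)) := by
        intro e
        cases hμ : μ e
        · by_cases he : e ∈ X.erase b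
          · simp [mix, he]
          · simp [mix, he]
        · cases hs : s e <;> simp [mix]
        · simp [mix]
        · simp [mix]
      have hXw : ∀ e, (μ e = .w ∧ e ∈ X.erase b) ↔ e ∈ X.erase b :=
        fun e => ⟨fun h => h.2, fun h => ⟨(hXv e h).1.1, h⟩⟩
      have e1 : cov M lt z (fun e => mix (μ e) (decide (e ∈ X.erase b)) (s e) = .d ∨
          mix (μ e) (decide (e ∈ X.erase b)) (s e) = .t) ↔
          cov M lt z (fun e => (μ e = .d ∨ e ∈ X.erase b) ∨ (μ e = .r ∧ s e = true)) :=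
        cov_congr M lt fun e _ => by
          rw [hd, ht, hXw]
          tauto
      have e2 : cov M lt z (fun e => mix (μ e) (decide (e ∈ X.erase b)) (s e) = .d ∨
          mix (μ e) (decide (e ∈ X.erase b)) (s e) = .t ∨ e = b) ↔
          cov M lt z (fun e => (μ e = .d ∨ e ∈ X) ∨ (μ e = .r ∧ s e = true)) :=
        cov_congr M lt fun e _ => by
          rw [hd, ht, hXw]
          have : e ∈ X ↔ e ∈ X.erase b ∨ e = b := by
            rw [mem_erase]
            constructor
            · intro h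
              by_cases heb : e = b
              · exact Or.inr heb
              · exact Or.inl ⟨heb, h⟩
            · rintro (h | rfl)
              · exact h.2
              · exact hbX
          rw [this]
          tauto
      have e3 : cov M lt z (fun e => (μ e = .d ∨ e ∈ X.erase b) ∨ (μ e = .r ∧ s e = true)) →
          cov M lt z (fun e => (μ e = .d ∨ e ∈ X) ∨ (μ e = .r ∧ s e = true)) := by
        refine cov_mono M lt fun e h => ?_
        rcases h with (h | h) | h
        · exact Or.inl (Or.inl h)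
        · exact Or.inl (Or.inr (mem_of_mem_erase h))
        · exact Or.inr h
      unfold phi
      rw [if_congr (and_congr e2 (not_congr e1)) rfl rfl]
      by_cases c1 : cov M lt z (fun e => (μ e = .d ∨ e ∈ X.erase b) ∨ (μ e = .r ∧ s e = true))
      · rw [if_neg (fun h => h.2 c1), if_pos c1, if_pos (e3 c1), sub_zero]
      · by_cases c2 : cov M lt z (fun e => (μ e = .d ∨ e ∈ X) ∨ (μ e = .r ∧ s e = true))
        · rw [if_pos ⟨c2, c1⟩, if_neg c1, if_pos c2, sub_zero]
        · rw [if_neg (fun h => c2 h.1), if_neg c1, if_neg c2, sub_self]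
    rw [h5, h4]
    linarith

/-- **The adversarial fragments.** -/
theorem ev1_jstar {p lam q : ℝ} (hp : 0 ≤ p) (hlam : 1 ≤ lam) (hq : 0 ≤ q)
    (hs : p + lam * p + q ≤ 1 / 2) {b z : E} (hbz : z ≠ b) (x ρ : ℕ) (hx : 1 ≤ x) :
    EX (fun _ => w5 p lam q) (fun κ : E → C5 => if Ev1 M lt b z x ρ κ then 1 else 0) ≤
      p ^ 2 * (1 / lam) ^ (ρ - 1) * EX (w4 p lam q b z)
        (fun μ => if Rel M lt b z x (1 / (2 * x * (x + 1))) μ then 1 else 0) := by
  have hlam0 : 0 ≤ lam := by linarith
  have hlp : 0 ≤ lam * p := mul_nonneg hlam0 hp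
  refine (step1 M lt hp hlam0 hq hs hbz x ρ).trans ?_
  rw [step2 (p := p) (q := q) hlam0 b z, mul_assoc]
  refine mul_le_mul_of_nonneg_left ?_ (by positivity)
  rw [← EX_mul]
  have hw : ∀ e l, 0 ≤ w4 p lam q b z e l := by
    intro e l
    cases l <;> simp only [w4] <;> split_ifs <;> nlinarith
  refine EX_mono_supp hw fun μ hμ => ?_
  have hb : μ b = .o := by
    have h := hμ b
    cases hμb : μ b
    · rw [hμb] at h; exact absurd (by simp [w4]) h
    · rw [hμb] at h; exact absurd (by simp [w4]) h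
    · rw [hμb] at h; exact absurd (by simp [w4]) h
    · rfl
  have hz : μ z = .o := by
    have h := hμ z
    cases hμz : μ z
    · rw [hμz] at h; exact absurd (by simp [w4]) h
    · rw [hμz] at h; exact absurd (by simp [w4]) h
    · rw [hμz] at h; exact absurd (by simp [w4]) h
    · rfl
  by_cases hR : Rel M lt b z x (1 / (2 * x * (x + 1))) μ
  · rw [if_pos hR, mul_one]
    exact inner M lt hlam μ hb hz
  · rw [if_neg hR, mul_zero]
    refine le_of_eq ?_
    have h0 : (fun σ : E → Bool => if A5 M lt b z x ρ (fun e => comb (μ e) (σ e)) then (1 : ℝ)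
        else 0) = fun _ => 0 := by
      funext σ
      rw [if_neg fun h => hR (rel_of_A5 M lt hx h)]
    rw [h0]
    simp [EX]

end

end Vale.Agent.P331.H705
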