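import Mathlib

/-!
# A numerical estimate
-/

set_option autoImplicit false

namespace Vale.Agent.P331.H705

open Finset

theorem sum_inv_sq (N : ℕ) (hN : 1 ≤ N) :
    ∑ x ∈ Icc 1 N, (1 : ℝ) / (x : ℝ) ^ 2 ≤ (2 : ℝ) - 1 / (N : ℝ) := by
  induction N, hN using Nat.le_induction with
  | base => norm_num
  | succ n hn ih =>
    rw [sum_Icc_succ_top (by omega)]
    have hn0 : (0 : ℝ) < n := by exact_mod_cast hn
    have h : 1 / ((n + 1 : ℕ) : ℝ) ^ 2 ≤ 1 / n - 1 / ((n + 1 : ℕ) : ℝ) := by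
      push_cast
      rw [div_sub_div _ _ hn0.ne' (by positivity), div_le_div_iff₀ (by positivity) (by positivity)]
      nlinarith
    linarith

theorem num_term (K : ℕ) (hK : 1 ≤ K) {p : ℝ} (hp : 0 ≤ p) (hpK : 1000 * K * p ≤ 1) (x : ℕ)
    (hx : 1 ≤ x) : (2 * (x : ℝ) * (x + 1)) ^ 2 * (1 + 4 * ((1 + 64) * p)) ^ (2 * (x - 1)) *
      (1 / 64 : ℝ) ^ (Nat.clog 2 x + x / K) ≤ 32 * (1 / (x : ℝ) ^ 2) := by
  have hx0 : (1 : ℝ) ≤ x := by exact_mod_cast hx
  have hK0 : (0 : ℝ) < K := by exact_mod_cast hK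
  -- the logarithmic part
  have h1 : (x : ℝ) ^ 6 ≤ 64 ^ (Nat.clog 2 x) := by
    have h2 : x ≤ 2 ^ Nat.clog 2 x := Nat.le_pow_clog (by norm_num) x
    have h3 : (x : ℝ) ≤ 2 ^ Nat.clog 2 x := by exact_mod_cast h2
    calc (x : ℝ) ^ 6 ≤ (2 ^ Nat.clog 2 x) ^ 6 := by gcongr
      _ = 64 ^ (Nat.clog 2 x) := by rw [← pow_mul, mul_comm, pow_mul]; norm_num
  -- the growth part
  have h4 : (1 + 4 * ((1 + 64) * p)) ^ (2 * (x - 1)) ≤ 2 * 64 ^ (x / K) := by
    have h5 : (1 + 4 * ((1 + 64) * p)) ≤ Real.exp (260 * p) := by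
      have := Real.add_one_le_exp (260 * p)
      linarith
    have h6 : (1 + 4 * ((1 + 64) * p)) ^ (2 * (x - 1)) ≤ Real.exp (0.52 * ((x / K : ℕ) + 1)) := by
      calc (1 + 4 * ((1 + 64) * p)) ^ (2 * (x - 1)) ≤ (Real.exp (260 * p)) ^ (2 * (x - 1)) := by
            gcongr
        _ = Real.exp ((2 * (x - 1) : ℕ) * (260 * p)) := (Real.exp_nat_mul _ _).symm
        _ ≤ _ := by
            apply Real.exp_le_exp.2
            have h7 : x < K * (x / K + 1) := by
              have := Nat.lt_mul_div_succ x (by omega : 0 < K)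
              exact this
            have h8 : ((x - 1 : ℕ) : ℝ) ≤ K * ((x / K : ℕ) + 1) := by
              have h9 : x - 1 ≤ K * (x / K + 1) := by omega
              exact_mod_cast h9
            have h10 : ((2 * (x - 1) : ℕ) : ℝ) = 2 * ((x - 1 : ℕ) : ℝ) := by push_cast; ring
            rw [h10]
            have h11 : (0 : ℝ) ≤ (x / K : ℕ) + 1 := by positivity
            calc 2 * ((x - 1 : ℕ) : ℝ) * (260 * p) = ((x - 1 : ℕ) : ℝ) * (520 * p) := by ring
              _ ≤ (K * ((x / K : ℕ) + 1)) * (520 * p) := by gcongr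
              _ = (K * p) * (520 * ((x / K : ℕ) + 1)) := by ring
              _ ≤ (1 / 1000) * (520 * ((x / K : ℕ) + 1)) := by
                  gcongr
                  linarith
              _ = _ := by ring
    have h12 : Real.exp (0.52 * ((x / K : ℕ) + 1)) = Real.exp 0.52 * (Real.exp 0.52) ^ (x / K) := by
      rw [← Real.exp_nat_mul, ← Real.exp_add]
      congr 1
      ring
    have h13 : Real.exp 0.52 ≤ 2 := by
      have h14 : (Real.exp 0.52) ^ 2 ≤ 2 ^ 2 := by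
        rw [← Real.exp_nat_mul]
        have h15 : Real.exp ((2 : ℕ) * 0.52) ≤ 4 := by
          have h16 : Real.exp ((2 : ℕ) * 0.52) = Real.exp 1 * Real.exp 0.04 := by
            rw [← Real.exp_add]; norm_num
          have h17 : Real.exp 0.04 ≤ 1.05 := by
            have := Real.exp_bound_div_one_sub_of_interval (x := 0.04) (by norm_num) (by norm_num)
            refine this.trans ?_
            norm_num
          have h18 := Real.exp_one_lt_d9
          rw [h16]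
          nlinarith [Real.exp_pos 1, Real.exp_pos 0.04]
        linarith
      nlinarith [Real.exp_pos 0.52]
    rw [h12] at h6
    refine h6.trans ?_
    have h19 : (Real.exp 0.52) ^ (x / K) ≤ 64 ^ (x / K) := by
      gcongr
      linarith
    gcongr
  have h20 : (1 / 64 : ℝ) ^ (Nat.clog 2 x + x / K) = 1 / (64 ^ Nat.clog 2 x * 64 ^ (x / K)) := by
    rw [one_div_pow, pow_add]
  rw [h20]
  have h21 : (0 : ℝ) < 64 ^ (x / K) := by positivity
  have h22 : (0 : ℝ) < 64 ^ Nat.clog 2 x := by positivity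
  have h23 : (2 * (x : ℝ) * (x + 1)) ^ 2 ≤ 16 * (x : ℝ) ^ 4 := by
    have h24 : 2 * (x : ℝ) * (x + 1) ≤ 4 * (x : ℝ) ^ 2 := by nlinarith
    calc (2 * (x : ℝ) * (x + 1)) ^ 2 ≤ (4 * (x : ℝ) ^ 2) ^ 2 := by gcongr
      _ = 16 * (x : ℝ) ^ 4 := by ring
  rw [mul_one_div, mul_one_div, div_le_div_iff₀ (by positivity) (by positivity)]
  calc (2 * (x : ℝ) * (x + 1)) ^ 2 * (1 + 4 * ((1 + 64) * p)) ^ (2 * (x - 1)) * (x : ℝ) ^ 2
      ≤ (16 * (x : ℝ) ^ 4) * (2 * 64 ^ (x / K)) * (x : ℝ) ^ 2 := by gcongr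
    _ = 32 * ((x : ℝ) ^ 6 * 64 ^ (x / K)) := by ring
    _ ≤ 32 * (64 ^ Nat.clog 2 x * 64 ^ (x / K)) := by gcongr

theorem num_sum (K : ℕ) (hK : 1 ≤ K) {p : ℝ} (hp : 0 ≤ p) (hpK : 1000 * K * p ≤ 1) (N : ℕ) :
    ∑ x ∈ Icc 1 N, (2 * (x : ℝ) * (x + 1)) ^ 2 * (1 + 4 * ((1 + 64) * p)) ^ (2 * (x - 1)) *
      (1 / 64 : ℝ) ^ (Nat.clog 2 x + x / K) ≤ 100 := by
  rcases Nat.eq_zero_or_pos N with rfl | hN
  · simp
  · refine (sum_le_sum fun x hx => num_term K hK hp hpK x (mem_Icc.1 hx).1).trans ?_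
    rw [← mul_sum]
    have h := sum_inv_sq N hN
    have h2 : (0 : ℝ) ≤ 1 / N := by positivity
    linarith

end Vale.Agent.P331.H705
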