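import Vale.Agent.P331.H705.E1Of
import Vale.Agent.P331.H705.Jst
import Vale.Agent.P331.H705.NumSum

/-!
# The first sum
-/

set_option autoImplicit false
set_option linter.unusedSectionVars false

namespace Vale.Agent.P331.H705

open Finset Vale.Agent.P331.H489
open scoped Classical

section

variable {E : Type} [Fintype E] (M : Matroid E) (lt : E → E → Prop) [IsStrictTotalOrder E lt]

/-- **The first sum.** -/
theorem e1_bound (hM : M.E = Set.univ) (K : ℕ) (hK : 1 ≤ K) {p q : ℝ} (hp : 0 ≤ p)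
    (hpK : 1000 * K * p ≤ 1) (hq : 0 ≤ q) (hs : p + 64 * p + q ≤ 1 / 2) (b : E) (N : ℕ) :
    ∑ x ∈ Icc 1 N, ∑ z ∈ univ.erase b, EX (fun _ => w5 p 64 q)
      (fun κ : E → C5 => if Ev1 M lt b z x (1 + (Nat.clog 2 x + x / K)) κ then 1 else 0) ≤
      400 * p ^ 2 :=
  e1_bound_of M lt hM K hp hq hs b N (fun z x ρ hz hx =>
    ev1_jstar M lt hp (by norm_num : (1 : ℝ) ≤ 64) hq hs hz x ρ hx) (num_sum K hK hp hpK N)

end

end Vale.Agent.P331.H705
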