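import Vale.Agent.P331.H705.Entrance

/-!
# The first sum
-/

set_option autoImplicit false
set_option linter.unusedSectionVars false

namespace Vale.Agent.P331.H705

open Finset Vale.Agent.P331.H489
open scoped Classical

section

variable {E : Type} [Fintype E] (M : Matroid E) (lt : E → E → Prop) [IsStrictTotalOrder E lt]

theorem w4_nonneg {p lam q : ℝ} (hp : 0 ≤ p) (hlam : 0 ≤ lam) (hq : 0 ≤ q)
    (hs : p + lam * p + q ≤ 1 / 2) (b z : E) (e : E) (l : Q) : 0 ≤ w4 p lam q b z e l := by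
  have hlp : 0 ≤ lam * p := mul_nonneg hlam hp
  cases l <;> simp only [w4] <;> split_ifs <;> nlinarith

theorem phi_sq (b z : E) (ν : E → N3) : (phi M lt b z ν) ^ 2 = phi M lt b z ν := by
  unfold phi
  split_ifs <;> norm_num

/-- the bound for fixed `x` and `z` -/
theorem rel_bound {p lam q : ℝ} (hp : 0 ≤ p) (hlam : 0 ≤ lam) (hq : 0 ≤ q)
    (hs : p + lam * p + q ≤ 1 / 2) (b z : E) (x : ℕ) (hx : 1 ≤ x) :
    EX (w4 p lam q b z) (fun μ => if Rel M lt b z x (1 / (2 * x * (x + 1))) μ then 1 else 0) ≤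
      (2 * (x : ℝ) * (x + 1)) ^ 2 * (1 + 4 * ((1 + lam) * p)) ^ (2 * (x - 1)) *
        EX (w3 (w4 p lam q b z)) (phi M lt b z) := by
  have hx0 : (0 : ℝ) < x := by exact_mod_cast hx
  obtain ⟨A, hA⟩ : ∃ A : ℝ, A = 1 + 4 * ((1 + lam) * p) := ⟨_, rfl⟩
  have hv : 0 ≤ (1 + lam) * p := mul_nonneg (by linarith) hp
  have hA1 : 1 ≤ A := by rw [hA]; linarith
  have hA0 : 0 < A := by linarith
  have hη0 : 0 ≤ 1 / A := by positivity
  have hη1 : 1 / A ≤ 1 := by rw [div_le_one hA0]; exact hA1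
  have hδ : (0 : ℝ) ≤ 1 / (2 * x * (x + 1)) := by positivity
  have h := L2_event hη0 hη1 (w4 p lam q b z) (w4_nonneg hp hlam hq hs b z) (fun e => by
      simp only [w4]
      split_ifs
      · simp
      · rw [div_mul_eq_mul_div, one_mul, div_le_iff₀ hA0, hA]
        linarith) (phi M lt b z) (phi_nonneg M lt b z)
    (Rel M lt b z x (1 / (2 * x * (x + 1)))) hδ (x - 1) (fun μ hμ => hμ)
  simp only [phi_sq] at h
  rw [← hA]
  have h2 : ((1 / A) ^ (x - 1) * (1 / (2 * (x : ℝ) * (x + 1)))) ^ 2 =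
      1 / ((2 * (x : ℝ) * (x + 1)) ^ 2 * A ^ (2 * (x - 1))) := by
    rw [mul_pow, ← pow_mul, one_div_pow, one_div_pow, mul_comm (x - 1) 2, one_div_mul_one_div,
      mul_comm (A ^ (2 * (x - 1)))]
  rw [h2, div_mul_eq_mul_div, one_mul, div_le_iff₀ (by positivity)] at h
  linarith

/-- **The first sum**, from the bound for fixed `x`, `z` and the numerical estimate. -/
theorem e1_bound_of (hM : M.E = Set.univ) (K : ℕ) {p q : ℝ} (hp : 0 ≤ p)
    (hq : 0 ≤ q) (hs : p + 64 * p + q ≤ 1 / 2) (b : E) (N : ℕ)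
    (hj : ∀ (z : E) (x ρ : ℕ), z ≠ b → 1 ≤ x →
      EX (fun _ => w5 p 64 q) (fun κ : E → C5 => if Ev1 M lt b z x ρ κ then 1 else 0) ≤
      p ^ 2 * (1 / 64) ^ (ρ - 1) * EX (w4 p 64 q b z)
        (fun μ => if Rel M lt b z x (1 / (2 * x * (x + 1))) μ then 1 else 0))
    (hn : ∑ x ∈ Icc 1 N, (2 * (x : ℝ) * (x + 1)) ^ 2 * (1 + 4 * ((1 + 64) * p)) ^ (2 * (x - 1)) *
      (1 / 64 : ℝ) ^ (Nat.clog 2 x + x / K) ≤ 100) :
    ∑ x ∈ Icc 1 N, ∑ z ∈ univ.erase b, EX (fun _ => w5 p 64 q)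
      (fun κ : E → C5 => if Ev1 M lt b z x (1 + (Nat.clog 2 x + x / K)) κ then 1 else 0) ≤
      400 * p ^ 2 := by
  have h1 : ∀ x ∈ Icc 1 N, ∑ z ∈ univ.erase b, EX (fun _ => w5 p 64 q)
      (fun κ : E → C5 => if Ev1 M lt b z x (1 + (Nat.clog 2 x + x / K)) κ then 1 else 0) ≤
      4 * p ^ 2 * ((2 * (x : ℝ) * (x + 1)) ^ 2 * (1 + 4 * ((1 + 64) * p)) ^ (2 * (x - 1)) *
      (1 / 64 : ℝ) ^ (Nat.clog 2 x + x / K)) := by
    intro x hx
    have hx1 : 1 ≤ x := (mem_Icc.1 hx).1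
    have h2 : ∀ z ∈ univ.erase b, EX (fun _ => w5 p 64 q)
        (fun κ : E → C5 => if Ev1 M lt b z x (1 + (Nat.clog 2 x + x / K)) κ then 1 else 0) ≤
        p ^ 2 * ((2 * (x : ℝ) * (x + 1)) ^ 2 * (1 + 4 * ((1 + 64) * p)) ^ (2 * (x - 1)) *
          (1 / 64 : ℝ) ^ (Nat.clog 2 x + x / K)) * EX (w3 (w4 p 64 q b z)) (phi M lt b z) := by
      intro z hz
      have h3 := hj z x (1 + (Nat.clog 2 x + x / K)) (ne_of_mem_erase hz) hx1
      rw [Nat.add_sub_cancel_left] at h3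
      refine h3.trans ?_
      have h4 := rel_bound M lt hp (by norm_num : (0 : ℝ) ≤ 64) hq hs b z x hx1
      have h5 : 0 ≤ p ^ 2 * (1 / 64 : ℝ) ^ (Nat.clog 2 x + x / K) := by positivity
      have h6 := mul_le_mul_of_nonneg_left h4 h5
      linarith [h6]
    refine (sum_le_sum h2).trans ?_
    rw [← mul_sum]
    have h7 := entrance M lt hM hp (by norm_num : (0 : ℝ) ≤ 64) hq hs b
    have h8 : 0 ≤ p ^ 2 * ((2 * (x : ℝ) * (x + 1)) ^ 2 * (1 + 4 * ((1 + 64) * p)) ^ (2 * (x - 1)) *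
          (1 / 64 : ℝ) ^ (Nat.clog 2 x + x / K)) := by positivity
    have h9 := mul_le_mul_of_nonneg_left h7 h8
    linarith [h9]
  refine (sum_le_sum h1).trans ?_
  rw [← mul_sum]
  have h10 := hn
  have h11 : 0 ≤ 4 * p ^ 2 := by positivity
  have h12 := mul_le_mul_of_nonneg_left h10 h11
  linarith

end

end Vale.Agent.P331.H705
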