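import Vale.Agent.P331.H489.Rows

/-!
# The entrance sum

For every labelling at most one element `z` of `T` enters the closure because of `b`.
-/

set_option autoImplicit false
set_option linter.unusedSectionVars false
set_option linter.unusedVariables false

namespace Vale.Agent.P331.H705

open Finset Vale.Agent.P331.H489
open scoped Classical

section

variable {E : Type} [Fintype E] (M : Matroid E) (lt : E → E → Prop) [IsStrictTotalOrder E lt]

theorem phi_nonneg (b z : E) (ν : E → N3) : 0 ≤ phi M lt b z ν := by
  unfold phi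
  split_ifs <;> norm_num

theorem cov_congr {z : E} {P P' : E → Prop} (h : ∀ e, lt z e → (P e ↔ P' e)) :
    cov M lt z P ↔ cov M lt z P' := by
  unfold cov
  have : {e | lt z e ∧ P e} = {e | lt z e ∧ P' e} := by
    ext e
    exact and_congr_right fun he => h e he
  rw [this]

/-- `phi` does not depend on the label of `z` -/
theorem phi_update (b z : E) (ν : E → N3) (l : N3) :
    phi M lt b z (Function.update ν z l) = phi M lt b z ν := by
  have hne : ∀ e, lt z e → Function.update ν z l e = ν e := by
    intro e he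
    refine Function.update_of_ne ?_ _ _
    rintro rfl
    exact irrefl_of lt e he
  have h1 : cov M lt z (fun e => Function.update ν z l e = .d ∨ Function.update ν z l e = .t ∨ e = b)
      ↔ cov M lt z (fun e => ν e = .d ∨ ν e = .t ∨ e = b) :=
    cov_congr M lt fun e he => by rw [hne e he]
  have h2 : cov M lt z (fun e => Function.update ν z l e = .d ∨ Function.update ν z l e = .t)
      ↔ cov M lt z (fun e => ν e = .d ∨ ν e = .t) :=
    cov_congr M lt fun e he => by rw [hne e he]
  unfold phi
  rw [if_congr (and_congr h1 (not_congr h2)) rfl rfl]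

/-- the closures which appear in `phi` -/
theorem phi_eq_one {b z : E} {ν : E → N3} (h : phi M lt b z ν ≠ 0) :
    lt z b ∧ z ∈ M.closure (insert b {e | lt z e ∧ (ν e = .d ∨ ν e = .t)}) ∧
      z ∉ M.closure {e | lt z e ∧ (ν e = .d ∨ ν e = .t)} := by
  unfold phi at h
  have h1 : cov M lt z (fun e => ν e = .d ∨ ν e = .t ∨ e = b) ∧
      ¬ cov M lt z (fun e => ν e = .d ∨ ν e = .t) := by
    by_contra h'
    exact h (if_neg h')
  have hb : lt z b := by
    by_contra hb
    refine h1.2 ((cov_congr M lt fun e he => ?_).1 h1.1)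
    constructor
    · rintro (h | h | rfl)
      · exact Or.inl h
      · exact Or.inr h
      · exact absurd he hb
    · rintro (h | h)
      · exact Or.inl h
      · exact Or.inr (Or.inl h)
  refine ⟨hb, ?_, h1.2⟩
  have h2 := h1.1
  unfold cov at h2
  refine M.closure_subset_closure ?_ h2
  rintro e ⟨he, h | h | rfl⟩
  · exact Or.inr ⟨he, Or.inl h⟩
  · exact Or.inr ⟨he, Or.inr h⟩
  · exact Or.inl rfl

/-- at most one element enters -/
theorem phi_unique {b z₁ z₂ : E} {ν : E → N3} (h1 : ν z₁ = .t)
    (h2 : ν z₂ = .t) (h3 : phi M lt b z₁ ν ≠ 0) (h4 : phi M lt b z₂ ν ≠ 0) : z₁ = z₂ := by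
  -- the lighter of the two leads to a contradiction
  have key : ∀ x y : E, ν x = .t → ν y = .t → phi M lt b x ν ≠ 0 → phi M lt b y ν ≠ 0 →
      ¬ lt x y := by
    intro x y _ hy hx' hy' hxy
    obtain ⟨-, hx1, hx2⟩ := phi_eq_one M lt hx'
    obtain ⟨-, hy1, hy2⟩ := phi_eq_one M lt hy'
    have he : b ∈ M.closure (insert y {e | lt y e ∧ (ν e = .d ∨ ν e = .t)}) :=
      (Matroid.closure_exchange ⟨hy1, hy2⟩).1
    have hsub : insert y {e | lt y e ∧ (ν e = .d ∨ ν e = .t)} ⊆
        {e | lt x e ∧ (ν e = .d ∨ ν e = .t)} := by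
      rintro e (rfl | ⟨he1, he2⟩)
      · exact ⟨hxy, Or.inr hy⟩
      · exact ⟨trans_of lt hxy he1, he2⟩
    have hb : b ∈ M.closure {e | lt x e ∧ (ν e = .d ∨ ν e = .t)} :=
      M.closure_subset_closure hsub he
    apply hx2
    have h5 := M.closure_insert_eq_of_mem_closure hb
    rw [h5] at hx1
    exact hx1
  rcases trichotomous_of lt z₁ z₂ with h | h | h
  · exact absurd h (key z₁ z₂ h1 h2 h3 h4)
  · exact h
  · exact absurd h (key z₂ z₁ h2 h1 h4 h3)

/-- the weights with only the label of `b` forced -/
noncomputable def wB (q : ℝ) (b : E) (e : E) : N3 → ℝ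
  | .t => if e = b then 0 else 1 / 4
  | .d => if e = b then 0 else q
  | .o => if e = b then 1 else 3 / 4 - q

theorem wB_update {p lam q : ℝ} {b z : E} (hz : z ≠ b) :
    Function.update (wB q b) z (Pi.single .o 1) = w3 (w4 p lam q b z) := by
  funext e l
  by_cases he : e = z
  · subst he
    rw [Function.update_self]
    cases l
    · simp [w3, w4]
    · simp [w3, w4]
    · simp [w3, w4]
  · rw [Function.update_of_ne he]
    by_cases hb : e = b
    · subst hb
      cases l <;> simp [w3, w4, wB]
    · cases l
      · simp [w3, w4, wB, he, hb]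
        norm_num
      · simp [w3, w4, wB, he, hb]
      · simp [w3, w4, wB, he, hb]
        ring

/-- **The entrance sum** is at most `4`. -/
theorem entrance (hM : M.E = Set.univ) {p lam q : ℝ} (hp : 0 ≤ p) (hlam : 0 ≤ lam) (hq : 0 ≤ q)
    (hs : p + lam * p + q ≤ 1 / 2) (b : E) :
    ∑ z ∈ univ.erase b, EX (w3 (w4 p lam q b z)) (phi M lt b z) ≤ 4 := by
  have hlp : 0 ≤ lam * p := mul_nonneg hlam hp
  have hw : ∀ e l, 0 ≤ wB q b e l := by
    intro e l
    cases l <;> simp only [wB] <;> split_ifs <;> linarith
  have hw1 : ∀ e, ∑ l, wB q b e l = 1 := by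
    intro e
    rw [sum_N3]
    simp only [wB]
    split_ifs <;> ring
  have h1 : ∀ z ∈ univ.erase b, EX (w3 (w4 p lam q b z)) (phi M lt b z) =
      4 * EX (wB q b) (fun ν => if ν z = .t then phi M lt b z ν else 0) := by
    intro z hz
    have hzb := ne_of_mem_erase hz
    rw [EX_cond z .t .o (wB q b), wB_update (p := p) (lam := lam) hzb]
    simp only [phi_update]
    rw [wB, if_neg hzb]
    ring
  rw [sum_congr rfl h1, ← mul_sum, ← EX_sum]
  have h2 : EX (wB q b) (fun ν => ∑ z ∈ univ.erase b, if ν z = .t then phi M lt b z ν else 0) ≤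
      EX (wB q b) (fun _ => 1) := by
    refine EX_mono hw fun ν => ?_
    by_cases hex : ∃ z ∈ univ.erase b, (if ν z = .t then phi M lt b z ν else 0) ≠ 0
    · obtain ⟨z, hz, hz'⟩ := hex
      have hzt : ν z = .t := by
        by_contra h
        exact hz' (if_neg h)
      rw [if_pos hzt] at hz'
      rw [sum_eq_single_of_mem z hz]
      · rw [if_pos hzt]
        unfold phi
        split_ifs <;> norm_num
      · intro y _ hy
        by_contra h
        have hyt : ν y = .t := by
          by_contra h'
          exact h (if_neg h')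
        rw [if_pos hyt] at h
        exact hy (phi_unique M lt hyt hzt h hz')
    · push Not at hex
      rw [sum_eq_zero hex]
      exact zero_le_one
  rw [EX_one _ hw1] at h2
  linarith

end

end Vale.Agent.P331.H705
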