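import Vale.Agent.P331.H726.Lab

/-!
# A maximal inequality for contexts inside a set of another label

Each coordinate gets independently a label `W`, `R`, `none` or an inert label, `T` is a uniformly
random subset of `R`.  The second moment of the largest value of `η ^ |Y| * E φ (T ∪ Y)` over the
subsets `Y` of `W` is at most the second moment of `φ T`.
-/

namespace Vale.Agent.P331.H705

open Finset Vale.Agent.P331.H726
open scoped Classical

universe u

section Er

variable {E : Type*} [Fintype E] {L : Type*} [Fintype L]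

/-- The expectation of `F` if the coordinates have independent labels with weights `w`. -/
noncomputable def Er [DecidableEq E] (w : E → L → ℝ) (F : (E → L) → ℝ) : ℝ :=
  ∑ ω : E → L, (∏ e, w e (ω e)) * F ω

theorem Er_mono [DecidableEq E] {w : E → L → ℝ} (hw : ∀ e a, 0 ≤ w e a) {F G : (E → L) → ℝ}
    (h : ∀ ω, F ω ≤ G ω) : Er w F ≤ Er w G :=
  Finset.sum_le_sum fun ω _ => mul_le_mul_of_nonneg_left (h ω) (prod_nonneg fun e _ => hw e _)

theorem Er_add [DecidableEq E] (w : E → L → ℝ) (F G : (E → L) → ℝ) :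
    Er w (fun ω => F ω + G ω) = Er w F + Er w G := by
  simp only [Er, mul_add, Finset.sum_add_distrib]

theorem Er_mul [DecidableEq E] (w : E → L → ℝ) (c : ℝ) (F : (E → L) → ℝ) :
    Er w (fun ω => c * F ω) = c * Er w F := by
  simp only [Er, Finset.mul_sum]
  exact Finset.sum_congr rfl fun ω _ => by ring

theorem Er_zero (w : Fin 0 → L → ℝ) (F : (Fin 0 → L) → ℝ) : Er w F = F finZeroElim := by
  rw [Er, Fintype.sum_unique]
  simp only [Finset.univ_eq_empty, Finset.prod_empty, one_mul]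
  congr 1

theorem Er_cons {n : ℕ} (w : Fin (n + 1) → L → ℝ) (F : (Fin (n + 1) → L) → ℝ) :
    Er w F = ∑ a, w 0 a * Er (fun i => w i.succ) (fun ω => F (Fin.cons a ω)) := by
  rw [Er, ← (Fin.consEquiv fun _ => L).sum_comp, Fintype.sum_prod_type]
  refine Finset.sum_congr rfl fun a _ => ?_
  rw [Er, Finset.mul_sum]
  refine Finset.sum_congr rfl fun ω _ => ?_
  have h : (Fin.consEquiv fun _ => L) (a, ω) = (Fin.cons a ω : Fin (n + 1) → L) := rfl
  rw [h, Fin.prod_univ_succ]
  simp only [Fin.cons_zero, Fin.cons_succ]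
  ring

end Er

/-- The sum over the labels. -/
theorem sum_labels_real {Λ : Type u} [Fintype Λ] (f : Lb Λ → ℝ) :
    ∑ a, f a = f (Sum.inl 0) + f (Sum.inl 1) + f (Sum.inl 2) + ∑ a : Λ, f (Sum.inr a) := by
  rw [Fintype.sum_sum_type, Fin.sum_univ_three]

/-- The average of `f` over the subsets of `R`. -/
noncomputable def av {n : ℕ} (R : St n) (f : St n → ℝ) : ℝ :=
  (∑ T : St n, if T ≤ R then f T else 0) / 2 ^ crd R

theorem cons_le_cons_iff {n : ℕ} {a b : Bool} {A B : St n} :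
    (Fin.cons a A : St (n + 1)) ≤ Fin.cons b B ↔ a ≤ b ∧ A ≤ B := by
  constructor
  · intro h
    exact ⟨h 0, fun i => h i.succ⟩
  · rintro ⟨h, h'⟩
    exact cons_le_cons h h'

theorem av_cons_false {n : ℕ} (R : St n) (f : St (n + 1) → ℝ) :
    av (Fin.cons false R) f = av R (fun T => f (Fin.cons false T)) := by
  rw [av, av, ← (Fin.consEquiv fun _ => Bool).sum_comp, Fintype.sum_prod_type, Fintype.sum_bool,
    crd_cons, Bool.toNat_false, zero_add]
  congr 1
  have h1 : ∀ T : St n, (Fin.consEquiv fun _ => Bool) (true, T) = (Fin.cons true T : St (n + 1)) :=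
    fun _ => rfl
  have h2 : ∀ T : St n, (Fin.consEquiv fun _ => Bool) (false, T) =
      (Fin.cons false T : St (n + 1)) := fun _ => rfl
  simp only [h1, h2, cons_le_cons_iff]
  rw [Finset.sum_eq_zero (s := (univ : Finset (St n)))
    (f := fun T => if true ≤ false ∧ T ≤ R then f (Fin.cons true T) else 0), zero_add]
  · exact Finset.sum_congr rfl fun T _ => if_congr (and_iff_right le_rfl) rfl rfl
  · intro T _
    exact if_neg fun h => absurd h.1 (by decide)

theorem av_cons_true {n : ℕ} (R : St n) (f : St (n + 1) → ℝ) :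
    av (Fin.cons true R) f = (av R (fun T => f (Fin.cons false T)) +
      av R (fun T => f (Fin.cons true T))) / 2 := by
  rw [av, av, av, ← (Fin.consEquiv fun _ => Bool).sum_comp, Fintype.sum_prod_type, Fintype.sum_bool,
    crd_cons, Bool.toNat_true]
  have h1 : ∀ T : St n, (Fin.consEquiv fun _ => Bool) (true, T) = (Fin.cons true T : St (n + 1)) :=
    fun _ => rfl
  have h2 : ∀ T : St n, (Fin.consEquiv fun _ => Bool) (false, T) =
      (Fin.cons false T : St (n + 1)) := fun _ => rfl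
  simp only [h1, h2, cons_le_cons_iff, le_refl, Bool.false_le, true_and]
  rw [pow_add, pow_one]
  have : (2 : ℝ) ^ crd R ≠ 0 := by positivity
  field_simp
  ring

theorem av_mono {n : ℕ} {R : St n} {f g : St n → ℝ} (h : ∀ T, f T ≤ g T) : av R f ≤ av R g := by
  unfold av
  gcongr with T _
  split_ifs
  · exact h T
  · exact le_rfl

theorem av_add {n : ℕ} (R : St n) (f g : St n → ℝ) :
    av R (fun T => f T + g T) = av R f + av R g := by
  unfold av
  rw [← add_div, ← Finset.sum_add_distrib]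
  congr 1
  exact Finset.sum_congr rfl fun T _ => by split_ifs <;> simp

theorem av_nonneg {n : ℕ} {R : St n} {f : St n → ℝ} (h : ∀ T, 0 ≤ f T) : 0 ≤ av R f := by
  unfold av
  refine div_nonneg (Finset.sum_nonneg fun T _ => ?_) (by positivity)
  split_ifs
  · exact h T
  · exact le_rfl

/-- The value of a context `Y`. -/
noncomputable def vl (η : ℝ) {n : ℕ} (φ : St n → ℝ) (W R Y : St n) : ℝ :=
  if Y ≤ W then η ^ crd Y * av R (fun T => φ (T ⊔ Y)) else 0

/-- The largest value of a context inside `W`. -/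
noncomputable def Mx (η : ℝ) {n : ℕ} (φ : St n → ℝ) (W R : St n) : ℝ := ⨆ Y : St n, vl η φ W R Y

theorem vl_le_Mx (η : ℝ) {n : ℕ} (φ : St n → ℝ) (W R Y : St n) : vl η φ W R Y ≤ Mx η φ W R :=
  le_ciSup (f := fun Y => vl η φ W R Y) (Set.finite_range _).bddAbove Y

theorem le_Mx (η : ℝ) {n : ℕ} (φ : St n → ℝ) {W R Y : St n} (h : Y ≤ W) :
    η ^ crd Y * av R (fun T => φ (T ⊔ Y)) ≤ Mx η φ W R := by
  have := vl_le_Mx η φ W R Y
  rwa [vl, if_pos h] at this

theorem Mx_nonneg {η : ℝ} (hη : 0 ≤ η) {n : ℕ} {φ : St n → ℝ} (h : ∀ T, 0 ≤ φ T) (W R : St n) :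
    0 ≤ Mx η φ W R := by
  refine le_trans ?_ (vl_le_Mx η φ W R ⊥)
  rw [vl, if_pos bot_le]
  exact mul_nonneg (pow_nonneg hη _) (av_nonneg fun T => h _)

theorem Mx_le {η : ℝ} {n : ℕ} {φ : St n → ℝ} {W R : St n} {x : ℝ} (hx : 0 ≤ x)
    (h : ∀ Y ≤ W, η ^ crd Y * av R (fun T => φ (T ⊔ Y)) ≤ x) : Mx η φ W R ≤ x := by
  refine ciSup_le fun Y => ?_
  rw [vl]
  split_ifs with hY
  · exact h Y hY
  · exact hx

/-- the pointwise inequality -/
theorem key_L {r v o η a c : ℝ} (hr : 0 ≤ r) (hv : 0 ≤ v)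
    (hη : 2 * η * v ≤ (1 - η) * r) (hc : 0 ≤ c) :
    v * (max a (η * c)) ^ 2 + r * ((a + c) / 2) ^ 2 + o * a ^ 2 ≤
      v * a ^ 2 + r * ((a ^ 2 + c ^ 2) / 2) + o * a ^ 2 := by
  rcases le_total (η * c) a with h | h
  · rw [max_eq_left h]
    nlinarith [mul_nonneg hr (sq_nonneg (a - c))]
  · rw [max_eq_right h]
    have hx : 0 ≤ η * c - a := sub_nonneg.2 h
    have h3 : 4 * ((1 - η) * c) * (η * c - a) ≤ (c - a) ^ 2 := by
      nlinarith [sq_nonneg ((1 - η) * c - (η * c - a))]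
    have h4 : (η * c) ^ 2 - a ^ 2 ≤ 2 * (η * c) * (η * c - a) := by
      nlinarith [mul_nonneg hx hx]
    have h5 : v * ((η * c) ^ 2 - a ^ 2) ≤ v * (2 * (η * c) * (η * c - a)) :=
      mul_le_mul_of_nonneg_left h4 hv
    have h6 : r * (4 * ((1 - η) * c) * (η * c - a)) ≤ r * (c - a) ^ 2 :=
      mul_le_mul_of_nonneg_left h3 hr
    have h7 : (2 * η * v) * (c * (η * c - a)) ≤ ((1 - η) * r) * (c * (η * c - a)) :=
      mul_le_mul_of_nonneg_right hη (mul_nonneg hc hx)
    nlinarith [h5, h6, h7]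

variable {Λ : Type u} [Fintype Λ]

/-- **The maximal inequality.** -/
theorem rowL {η : ℝ} (h0 : 0 ≤ η) : ∀ {n : ℕ} {w : Fin n → Lb Λ → ℝ}
    (_ : ∀ i a, 0 ≤ w i a) (_ : ∀ i, 2 * η * w i (Sum.inl 0) ≤ (1 - η) * w i (Sum.inl 1))
    (φ : (Fin n → Option Λ) → St n → ℝ) (_ : ∀ U T, 0 ≤ φ U T),
    Er w (fun ω => (Mx η (φ (iS ω)) (vS ω) (cS ω)) ^ 2) ≤
      Er w (fun ω => av (cS ω) (fun T => (φ (iS ω) T) ^ 2)) := by
  intro n
  induction n with
  | zero =>
    intro w _ _ φ hφ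
    rw [Er_zero, Er_zero]
    have hsub : ∀ T : St 0, T = ⊥ := fun T => Subsingleton.elim _ _
    have hcrd : ∀ T : St 0, crd T = 0 := fun T => by simp [crd]
    have hav : ∀ (R : St 0) (f : St 0 → ℝ), av R f = f ⊥ := by
      intro R f
      rw [av, hcrd, pow_zero, div_one, Fintype.sum_unique]
      rw [if_pos (le_of_eq (Subsingleton.elim _ _))]
      exact congrArg f (Subsingleton.elim _ _)
    rw [hav]
    have hM : Mx η (φ (iS (finZeroElim : Fin 0 → Lb Λ))) (vS (finZeroElim : Fin 0 → Lb Λ))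
        (cS (finZeroElim : Fin 0 → Lb Λ)) ≤ φ (iS (finZeroElim : Fin 0 → Lb Λ)) ⊥ := by
      refine Mx_le (hφ _ _) fun Y _ => ?_
      rw [hav, hcrd, pow_zero, one_mul, hsub Y]
      exact le_of_eq (congrArg _ (Subsingleton.elim _ _))
    exact pow_le_pow_left₀ (Mx_nonneg h0 (fun T => hφ _ T) _ _) hM 2
  | succ n ih =>
    intro w hw hl φ hφ
    have ih' := fun (u : Option Λ) (b : Bool) => ih (w := fun i => w i.succ)
      (fun i => hw i.succ) (fun i => hl i.succ) (fun U T => φ (Fin.cons u U) (Fin.cons b T))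
      (fun U T => hφ _ _)
    set a : Option Λ → Bool → (Fin n → Lb Λ) → ℝ := fun u b ω =>
      Mx η (fun T => φ (Fin.cons u (iS ω)) (Fin.cons b T)) (vS ω) (cS ω) with ha
    have ha0 : ∀ u b ω, 0 ≤ a u b ω := fun u b ω => Mx_nonneg h0 (fun T => hφ _ _) _ _
    -- inert labels and `none`
    have e1 : ∀ (x : Lb Λ) (_ : isV x = false) (_ : isC x = false) (ω : Fin n → Lb Λ),
        Mx η (φ (iS (Fin.cons x ω : Fin (n + 1) → Lb Λ)))
          (vS (Fin.cons x ω : Fin (n + 1) → Lb Λ)) (cS (Fin.cons x ω : Fin (n + 1) → Lb Λ)) ≤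
          a (inert x) false ω := by
      intro x hv hc ω
      refine Mx_le (ha0 _ _ _) fun Y hY => ?_
      rw [vS_cons, hv] at hY
      obtain ⟨b, Y', rfl, hb, hY'⟩ := exists_cons hY
      obtain rfl : b = false := by
        cases b
        · rfl
        · exact absurd hb (by decide)
      rw [cS_cons, iS_cons, hc, av_cons_false, crd_cons, Bool.toNat_false, zero_add]
      simp only [cons_sup]
      exact le_Mx η (fun T => φ (Fin.cons (inert x) (iS ω)) (Fin.cons false T)) hY'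
    have e2 : ∀ (ω : Fin n → Lb Λ),
        Mx η (φ (iS (Fin.cons (Sum.inl 1) ω : Fin (n + 1) → Lb Λ)))
          (vS (Fin.cons (Sum.inl 1) ω : Fin (n + 1) → Lb Λ))
          (cS (Fin.cons (Sum.inl 1) ω : Fin (n + 1) → Lb Λ)) ≤
          (a none false ω + a none true ω) / 2 := by
      intro ω
      refine Mx_le (div_nonneg (add_nonneg (ha0 _ _ _) (ha0 _ _ _)) (by norm_num)) fun Y hY => ?_
      rw [vS_cons] at hY
      obtain ⟨b, Y', rfl, hb, hY'⟩ := exists_cons hY
      rw [show isV (Sum.inl 1 : Lb Λ) = false from rfl] at hb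
      obtain rfl : b = false := by
        cases b
        · rfl
        · exact absurd hb (by decide)
      rw [cS_cons, iS_cons, show isC (Sum.inl 1 : Lb Λ) = true from rfl, av_cons_true, crd_cons,
        Bool.toNat_false, zero_add]
      simp only [cons_sup]
      have h2 := le_Mx η (fun T => φ (Fin.cons none (iS ω)) (Fin.cons false T)) (R := cS ω) hY'
      have h3 := le_Mx η (fun T => φ (Fin.cons none (iS ω)) (Fin.cons true T)) (R := cS ω) hY'
      have h4 : inert (Sum.inl 1 : Lb Λ) = none := rfl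
      rw [h4]
      change η ^ crd Y' * ((av (cS ω) (fun T => φ (Fin.cons none (iS ω)) (Fin.cons false (T ⊔ Y'))) +
        av (cS ω) (fun T => φ (Fin.cons none (iS ω)) (Fin.cons true (T ⊔ Y')))) / 2) ≤ _
      have h5 := add_le_add h2 h3
      simp only [ha]
      linarith
    have e3 : ∀ (ω : Fin n → Lb Λ),
        Mx η (φ (iS (Fin.cons (Sum.inl 0) ω : Fin (n + 1) → Lb Λ)))
          (vS (Fin.cons (Sum.inl 0) ω : Fin (n + 1) → Lb Λ))
          (cS (Fin.cons (Sum.inl 0) ω : Fin (n + 1) → Lb Λ)) ≤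
          max (a none false ω) (η * a none true ω) := by
      intro ω
      refine Mx_le (le_max_of_le_left (ha0 _ _ _)) fun Y hY => ?_
      rw [vS_cons] at hY
      obtain ⟨b, Y', rfl, -, hY'⟩ := exists_cons hY
      rw [cS_cons, iS_cons, show isC (Sum.inl 0 : Lb Λ) = false from rfl, av_cons_false, crd_cons]
      have h4 : inert (Sum.inl 0 : Lb Λ) = none := rfl
      rw [h4]
      simp only [cons_sup]
      cases b
      · rw [Bool.toNat_false, zero_add]
        refine le_trans ?_ (le_max_left _ _)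
        exact le_Mx η (fun T => φ (Fin.cons none (iS ω)) (Fin.cons false T)) hY'
      · rw [Bool.toNat_true, pow_add, pow_one, mul_assoc]
        refine le_trans ?_ (le_max_right _ _)
        exact mul_le_mul_of_nonneg_left
          (le_Mx η (fun T => φ (Fin.cons none (iS ω)) (Fin.cons true T)) hY') h0
    -- squares
    have hsq : ∀ {x y : ℝ}, 0 ≤ x → x ≤ y → x ^ 2 ≤ y ^ 2 := fun h h' => pow_le_pow_left₀ h h' 2
    have hM0 : ∀ ω : Fin (n + 1) → Lb Λ, 0 ≤ Mx η (φ (iS ω)) (vS ω) (cS ω) := fun ω =>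
      Mx_nonneg h0 (fun T => hφ _ _) _ _
    have hw' : ∀ (i : Fin n) (x : Lb Λ), 0 ≤ w i.succ x := fun i x => hw _ _
    rw [Er_cons, Er_cons, sum_labels_real, sum_labels_real]
    set Q := Er (fun i : Fin n => w i.succ) with hQ
    have s1 : w 0 (Sum.inl 0) * Q (fun ω => (max (a none false ω) (η * a none true ω)) ^ 2) +
        w 0 (Sum.inl 1) * Q (fun ω => ((a none false ω + a none true ω) / 2) ^ 2) +
        w 0 (Sum.inl 2) * Q (fun ω => (a none false ω) ^ 2) ≤
        w 0 (Sum.inl 0) * Q (fun ω => (a none false ω) ^ 2) +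
        w 0 (Sum.inl 1) * Q (fun ω => ((a none false ω) ^ 2 + (a none true ω) ^ 2) / 2) +
        w 0 (Sum.inl 2) * Q (fun ω => (a none false ω) ^ 2) := by
      rw [hQ, ← Er_mul, ← Er_mul, ← Er_mul, ← Er_mul, ← Er_mul, ← Er_add, ← Er_add,
        ← Er_add, ← Er_add]
      exact Er_mono hw' fun ω => key_L (hw _ _) (hw _ _) (hl 0) (ha0 _ _ _)
    have ihF : ∀ u, Q (fun ω => (a u false ω) ^ 2) ≤
        Q (fun ω => av (cS ω) (fun T => (φ (Fin.cons u (iS ω)) (Fin.cons false T)) ^ 2)) :=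
      fun u => ih' u false
    have ihT : ∀ u, Q (fun ω => (a u true ω) ^ 2) ≤
        Q (fun ω => av (cS ω) (fun T => (φ (Fin.cons u (iS ω)) (Fin.cons true T)) ^ 2)) :=
      fun u => ih' u true
    have l0 : Q (fun ω => (Mx η (φ (iS (Fin.cons (Sum.inl 0) ω : Fin (n + 1) → Lb Λ)))
          (vS (Fin.cons (Sum.inl 0) ω : Fin (n + 1) → Lb Λ))
          (cS (Fin.cons (Sum.inl 0) ω : Fin (n + 1) → Lb Λ))) ^ 2) ≤
        Q (fun ω => (max (a none false ω) (η * a none true ω)) ^ 2) :=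
      Er_mono hw' fun ω => hsq (hM0 _) (e3 ω)
    have l1 : Q (fun ω => (Mx η (φ (iS (Fin.cons (Sum.inl 1) ω : Fin (n + 1) → Lb Λ)))
          (vS (Fin.cons (Sum.inl 1) ω : Fin (n + 1) → Lb Λ))
          (cS (Fin.cons (Sum.inl 1) ω : Fin (n + 1) → Lb Λ))) ^ 2) ≤
        Q (fun ω => ((a none false ω + a none true ω) / 2) ^ 2) :=
      Er_mono hw' fun ω => hsq (hM0 _) (e2 ω)
    have l2 : ∀ (x : Lb Λ) (_ : isV x = false) (_ : isC x = false),
        Q (fun ω => (Mx η (φ (iS (Fin.cons x ω : Fin (n + 1) → Lb Λ)))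
          (vS (Fin.cons x ω : Fin (n + 1) → Lb Λ))
          (cS (Fin.cons x ω : Fin (n + 1) → Lb Λ))) ^ 2) ≤
        Q (fun ω => (a (inert x) false ω) ^ 2) := fun x hv hc =>
      Er_mono hw' fun ω => hsq (hM0 _) (e1 x hv hc ω)
    have r1 : ∀ (x : Lb Λ) (_ : isC x = false),
        Q (fun ω => av (cS (Fin.cons x ω : Fin (n + 1) → Lb Λ)) (fun T =>
          (φ (iS (Fin.cons x ω : Fin (n + 1) → Lb Λ)) T) ^ 2)) =
        Q (fun ω => av (cS ω) (fun T => (φ (Fin.cons (inert x) (iS ω)) (Fin.cons false T)) ^ 2)) := by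
      intro x hc
      congr 1
      funext ω
      rw [cS_cons, iS_cons, hc, av_cons_false]
    have r2 : Q (fun ω => av (cS (Fin.cons (Sum.inl 1) ω : Fin (n + 1) → Lb Λ)) (fun T =>
          (φ (iS (Fin.cons (Sum.inl 1) ω : Fin (n + 1) → Lb Λ)) T) ^ 2)) =
        Q (fun ω => (1 / 2) *
          av (cS ω) (fun T => (φ (Fin.cons none (iS ω)) (Fin.cons false T)) ^ 2) +
          (1 / 2) * av (cS ω) (fun T => (φ (Fin.cons none (iS ω)) (Fin.cons true T)) ^ 2)) := by
      congr 1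
      funext ω
      rw [cS_cons, iS_cons, show isC (Sum.inl 1 : Lb Λ) = true from rfl, av_cons_true]
      have h4 : inert (Sum.inl 1 : Lb Λ) = none := rfl
      rw [h4]
      ring
    have s2 : Q (fun ω => ((a none false ω) ^ 2 + (a none true ω) ^ 2) / 2) =
        (1 / 2) * Q (fun ω => (a none false ω) ^ 2) + (1 / 2) * Q (fun ω => (a none true ω) ^ 2) := by
      rw [hQ, ← Er_mul, ← Er_mul, ← Er_add]
      congr 1
      funext ω
      ring
    rw [r1 (Sum.inl 0) rfl, r1 (Sum.inl 2) rfl, r2]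
    rw [hQ, Er_add, Er_mul, Er_mul, ← hQ]
    have s3 := mul_le_mul_of_nonneg_left l0 (hw 0 (Sum.inl 0))
    have s4 := mul_le_mul_of_nonneg_left l1 (hw 0 (Sum.inl 1))
    have s5 := mul_le_mul_of_nonneg_left (l2 (Sum.inl 2) rfl rfl) (hw 0 (Sum.inl 2))
    have s6 := mul_le_mul_of_nonneg_left (ihF none) (hw 0 (Sum.inl 0))
    have s7 := mul_le_mul_of_nonneg_left (ihF none) (hw 0 (Sum.inl 2))
    have s8 := mul_le_mul_of_nonneg_left (ihF none) (hw 0 (Sum.inl 1))
    have s9 := mul_le_mul_of_nonneg_left (ihT none) (hw 0 (Sum.inl 1))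
    have s10 : ∑ x : Λ, w 0 (Sum.inr x) *
        Q (fun ω => (Mx η (φ (iS (Fin.cons (Sum.inr x) ω : Fin (n + 1) → Lb Λ)))
          (vS (Fin.cons (Sum.inr x) ω : Fin (n + 1) → Lb Λ))
          (cS (Fin.cons (Sum.inr x) ω : Fin (n + 1) → Lb Λ))) ^ 2) ≤
        ∑ x : Λ, w 0 (Sum.inr x) *
          Q (fun ω => av (cS (Fin.cons (Sum.inr x) ω : Fin (n + 1) → Lb Λ)) (fun T =>
          (φ (iS (Fin.cons (Sum.inr x) ω : Fin (n + 1) → Lb Λ)) T) ^ 2)) := by
      refine Finset.sum_le_sum fun x _ => mul_le_mul_of_nonneg_left ?_ (hw _ _)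
      rw [r1 (Sum.inr x) rfl]
      exact (l2 (Sum.inr x) rfl rfl).trans (ihF _)
    have i0 : inert (Sum.inl 0 : Lb Λ) = none := rfl
    have i2 : inert (Sum.inl 2 : Lb Λ) = none := rfl
    rw [i2] at s5
    rw [i0, i2]
    rw [s2] at s1
    clear_value Q
    nlinarith [s1, s3, s4, s5, s6, s7, s8, s9, s10]

theorem Er_nonneg {n : ℕ} {w : Fin n → Lb Λ → ℝ} (hw : ∀ i a, 0 ≤ w i a) {F : (Fin n → Lb Λ) → ℝ}
    (h : ∀ ω, 0 ≤ F ω) : 0 ≤ Er w F :=
  Finset.sum_nonneg fun ω _ => mul_nonneg (prod_nonneg fun i _ => hw i _) (h ω)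

/-- **The event version**: with a fixed number `m` of elements of the context and a family `A` of
sets which may depend on the inert labels. -/
theorem rowL_event {η d : ℝ} (h0 : 0 ≤ η) (hd : 0 ≤ d) {n : ℕ} {w : Fin n → Lb Λ → ℝ}
    (hw : ∀ i a, 0 ≤ w i a) (hl : ∀ i, 2 * η * w i (Sum.inl 0) ≤ (1 - η) * w i (Sum.inl 1))
    (A : (Fin n → Option Λ) → St n → Prop) (m : ℕ) :
    d ^ 2 * η ^ (2 * m) * Er w (fun ω => if ∃ Y ≤ vS ω, crd Y = m ∧
      d ≤ av (cS ω) (fun T => if A (iS ω) (T ⊔ Y) then 1 else 0) then 1 else 0) ≤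
      Er w (fun ω => av (cS ω) (fun T => if A (iS ω) T then 1 else 0)) := by
  have h := rowL h0 hw hl (fun U T => if A U T then (1 : ℝ) else 0) (fun U T => by
    split_ifs <;> norm_num)
  have h2 : Er w (fun ω => av (cS ω) (fun T => ((if A (iS ω) T then (1 : ℝ) else 0) ^ 2))) =
      Er w (fun ω => av (cS ω) (fun T => if A (iS ω) T then 1 else 0)) := by
    congr 1
    funext ω
    congr 1
    funext T
    split_ifs <;> norm_num
  rw [h2] at h
  refine le_trans ?_ h
  rw [← Er_mul]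
  refine Er_mono hw fun ω => ?_
  split_ifs with hY
  · obtain ⟨Y, hY, hm, hdY⟩ := hY
    rw [mul_one]
    have h3 := le_Mx η (fun T => if A (iS ω) T then (1 : ℝ) else 0) (R := cS ω) hY
    have h4 : η ^ m * d ≤ Mx η (fun T => if A (iS ω) T then (1 : ℝ) else 0) (vS ω) (cS ω) := by
      refine le_trans ?_ h3
      rw [hm]
      exact mul_le_mul_of_nonneg_left hdY (pow_nonneg h0 _)
    have h5 := pow_le_pow_left₀ (mul_nonneg (pow_nonneg h0 m) hd) h4 2
    refine le_trans (le_of_eq ?_) h5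
    ring
  · rw [mul_zero]
    positivity

end Vale.Agent.P331.H705
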